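import Vale.Agent.P032.Words6.H229.Comp
import Vale.Agent.P032.Words6.H229.TreesP
import Vale.Agent.P032.Words6.H358.TreesM
import Vale.Agent.P032.Words6.H122.All35

/-!
# P032: there is no clean point of six colours each of which is in a pair of the unit circle
-/

noncomputable section

namespace Vale.Agent.P032.Words6.H229

open Vale.Agent.P032.Words6.H358

/-- **Six colours.** -/
theorem no_six_active : S5.H843.NoSixA :=
  no_six_of (H122.map_LC ▸ H122.all35_of tree22 tree28 tree30 tree32 tree33 tree34
    H229.tree35)

end Vale.Agent.P032.Words6.H229
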