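import Vale.Agent.P032.Words6.H704.Start
import Vale.Agent.P032.Words6.H122.Lists
import Vale.Agent.P032.Words6.H172.Modes
import Vale.Agent.P032.Words6.H571.Leaf
import Vale.Agent.P032.Words6.H358.TreeD

/-!
# P032: six colours from the mode trees
-/

open Set Filter Topology Metric

noncomputable section

namespace Vale.Agent.P032.Words6.H229

open Vale.Agent.P032.Six Vale.Agent.P032.S5.H767 Vale.Agent.P032.Words6.H704
  Vale.Agent.P032.Words6.H46 Vale.Agent.P032.Words6.H343 Vale.Agent.P032.Words6.H503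
  Vale.Agent.P032.Words.Trie

theorem twoL_eq (L : List ℕ) (m : ℕ) : H571.twoL L m = H358.twoL L m := by
  unfold H571.twoL H358.twoL
  congr 1
  funext a
  congr 1
  funext b
  have h1 : Nat.land a m = Nat.land m a := Nat.and_comm a m
  have h2 : Nat.land b m = Nat.land m b := Nat.and_comm b m
  rw [h1, h2]

theorem tri_eq (m : ℕ) : H571.tri m = H358.tri m := rfl

theorem okL_bridge {D : Dat} {l : List (ℕ × Fin 3)} (hok : okD D = true)
    (hl : H358.okL D l = true) : H571.okL D l = true := by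
  have O := okS hok
  unfold H358.okL at hl
  simp only [Bool.and_eq_true] at hl
  obtain ⟨⟨⟨h1, h2⟩, h3⟩, h4⟩ := hl
  unfold H571.okL
  simp only [Bool.and_eq_true]
  refine ⟨⟨⟨h3, h4⟩, ?_⟩, ?_⟩
  · refine List.all_eq_true.2 fun m hm => ?_
    have k := List.all_eq_true.1 h1 m hm
    rw [tri_eq, twoL_eq]
    simp only [Bool.or_eq_true] at k ⊢
    rcases k with (((k | k) | k) | k) | k
    · exact Or.inl (Or.inl (Or.inl k))
    · exact Or.inl (Or.inl (Or.inr k))
    · exact Or.inl (Or.inr k)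
    · refine Or.inr (List.any_eq_true.2 ⟨(m, 0), List.contains_iff_mem.1 k, ?_⟩)
      simp
    · refine Or.inr (List.any_eq_true.2 ⟨(Nat.xor 63 m, 1), List.contains_iff_mem.1 k, ?_⟩)
      simp
  · refine List.all_eq_true.2 fun p hp => ?_
    have hp := List.mem_range.1 hp
    have hmem : D.P.getD p 0 ∈ D.P := getD_mem hp
    have hidx : D.P.idxOf (D.P.getD p 0) = p := by
      by_contra hne
      have hs := idx_spec hmem
      rw [O.lenP] at hs hp
      exact (O.ne _ hs.1 _ hp hne).1 hs.2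
    have k := List.all_eq_true.1 h2 _ hmem
    unfold tcode at k
    rw [hidx] at k
    rw [tri_eq]
    simp only [Bool.or_eq_true, Bool.and_eq_true] at k ⊢
    rcases k with k | ⟨k1, k2⟩
    · exact Or.inl k
    · refine Or.inr ⟨k1, List.any_eq_true.2 ⟨(D.P.getD p 0, 2), List.contains_iff_mem.1 k2, ?_⟩⟩
      simp

theorem mem_dats {L : List ℕ} (hL : L ∈ H122.Lets35) : L ∈ dats.map fun D => D.map Prod.fst := by
  revert L
  decide +kernel

/-- **Six colours.** -/
theorem no_six_of (htab : ∀ L ∈ H122.Lets35, H358.TreeOK L) : S5.H843.NoSixA := by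
  intro U T h hmin hU h5 z h6 hcl hact
  obtain ⟨C, hs, hi, ha, hdeg, hcut⟩ := start h hmin h6 hcl hact
  obtain ⟨L, hL, f, hf, hf6, hM⟩ := H122.classify35 hs hi ha hdeg hcut
  have S := hl_sel (M := MC T z) C fun v hv => C.hd hmin (mem_dats hL) hf hf6 hM hv
  obtain ⟨μ, hμ⟩ := H358.exists_mu (H172.rs_of h hmin hU h5 h6) hf hf6
  obtain ⟨ls, h1, h2⟩ := htab L hL
  obtain ⟨l, hl, h3⟩ := h1 μ
  obtain ⟨D, hB, hok, hokL, rfl⟩ := h2 l hl
  refine H571.leaf_core C hact S (fun v h hv => hl_leg v h hv) (fun v h hv => hl_rot hv) hB hok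
    (E := ⟨hf, hf6, hM⟩) (okL_bridge hok hokL) fun p hp => ?_
  have h4 := hμ p.1
  rw [h3 p hp] at h4
  exact h4

end Vale.Agent.P032.Words6.H229
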